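import Mathlib

/-!
Dynamics of minimal invariant filters: finite functions, dichotomy, fullness, separation.
-/

namespace Vale.Agent.P329.H493

open Filter

variable {β : Type*} {p : ℕ}

/-- `M` is a minimal `T`-invariant filter. -/
structure MinF (T : β → β) (M : Filter β) : Prop where
  neBot : M.NeBot
  inv : Tendsto T M M
  min : ∀ G : Filter β, G.NeBot → Tendsto T G G → G ≤ M → G = M

/-- a function of finitely many members of a subring of `ZMod p`-valued functions -/
theorem fin_fun [Fact p.Prime] (A : Subring (β → ZMod p)) {ι : Type*} [Finite ι]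
    (f : ι → β → ZMod p) (hf : ∀ i, f i ∈ A) (Φ : (ι → ZMod p) → ZMod p) :
    (fun v => Φ fun i => f i v) ∈ A := by
  classical
  have := Fintype.ofFinite ι
  have hconst : ∀ c : ZMod p, (fun _ : β => c) ∈ A := by
    intro c
    have h1 : (fun _ : β => c) = ((c.val : ℕ) : β → ZMod p) := by
      funext v
      simp
    rw [h1]
    exact natCast_mem A _
  have key : (fun v => Φ fun i => f i v) =
      ∑ c : ι → ZMod p, (fun _ : β => Φ c) *
        ∏ i, (1 - (f i - fun _ : β => c i) ^ (p - 1)) := by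
    funext v
    rw [Finset.sum_apply, Finset.sum_eq_single (fun i => f i v)]
    · have : (∏ i, (1 - (f i - fun _ : β => (fun i => f i v) i) ^ (p - 1))) v = 1 := by
        rw [Finset.prod_apply]
        refine Finset.prod_eq_one fun i _ => ?_
        simp only [Pi.sub_apply, Pi.one_apply, Pi.pow_apply, sub_self]
        rw [zero_pow (Nat.sub_ne_zero_of_lt (Fact.out : p.Prime).one_lt), sub_zero]
      rw [Pi.mul_apply, this, mul_one]
    · intro c _ hc
      have hex : ∃ i, f i v ≠ c i := by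
        by_contra hcon
        push Not at hcon
        exact hc (funext fun i => (hcon i).symm)
      obtain ⟨i, hi⟩ := hex
      rw [Pi.mul_apply, Finset.prod_apply, Finset.prod_eq_zero (Finset.mem_univ i), mul_zero]
      simp only [Pi.sub_apply, Pi.one_apply, Pi.pow_apply]
      rw [ZMod.pow_card_sub_one_eq_one (sub_ne_zero.2 hi), sub_self]
    · intro h
      exact absurd (Finset.mem_univ _) h
  rw [key]
  refine sum_mem fun c _ => mul_mem (hconst _) (prod_mem fun i _ => ?_)
  exact sub_mem (one_mem _) (pow_mem (sub_mem (hf i) (hconst _)) _)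

/-- a set of functions, finitely many of which determine `ψ` on `S` -/
theorem fin_fun_set [Fact p.Prime] (A : Subring (β → ZMod p)) {t : Set (β → ZMod p)}
    (ht : t.Finite) (htA : ∀ f ∈ t, f ∈ A) (S : Set β) (X : β → ZMod p)
    (h : ∀ v ∈ S, ∀ v' ∈ S, (∀ f ∈ t, f v = f v') → X v = X v') :
    ∃ ψ ∈ A, ∀ v ∈ S, X v = ψ v := by
  classical
  have := ht.to_subtype
  let Φ : (t → ZMod p) → ZMod p := fun c =>
    if hc : ∃ v ∈ S, ∀ f : t, f.1 v = c f then X hc.choose else 0
  refine ⟨fun v => Φ fun f => f.1 v, fin_fun A (fun f : t => f.1) (fun f => htA f.1 f.2) Φ,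
    fun v hv => ?_⟩
  have hc : ∃ v' ∈ S, ∀ f : t, f.1 v' = (fun f : t => f.1 v) f := ⟨v, hv, fun f => rfl⟩
  change X v = if hc : ∃ v' ∈ S, ∀ f : t, f.1 v' = (fun f : t => f.1 v) f then X hc.choose else 0
  rw [dif_pos hc]
  exact h v hv _ hc.choose_spec.1 fun f hf => (hc.choose_spec.2 ⟨f, hf⟩).symm

/-- pairs of equal type with a relation `R` -/
def pairF (M M' : Filter β) (A : Set (β → ZMod p)) (R : Set (β × β)) : Filter (β × β) where
  sets := {Z | ∃ S ∈ M, ∃ S' ∈ M', ∃ t : Set (β → ZMod p), t.Finite ∧ t ⊆ A ∧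
    ∀ q : β × β, q.1 ∈ S → q.2 ∈ S' → (∀ f ∈ t, f q.1 = f q.2) → q ∈ R → q ∈ Z}
  univ_sets := ⟨Set.univ, univ_mem, Set.univ, univ_mem, ∅, Set.finite_empty,
    Set.empty_subset _, fun _ _ _ _ _ => trivial⟩
  sets_of_superset := by
    rintro Z Z' ⟨S, hS, S', hS', t, ht, htA, h⟩ hZ
    exact ⟨S, hS, S', hS', t, ht, htA, fun q h1 h2 h3 h4 => hZ (h q h1 h2 h3 h4)⟩
  inter_sets := by
    rintro Z Z' ⟨S, hS, S', hS', t, ht, htA, h⟩ ⟨U, hU, U', hU', t', ht', htA', h'⟩
    refine ⟨S ∩ U, inter_mem hS hU, S' ∩ U', inter_mem hS' hU', t ∪ t', ht.union ht',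
      Set.union_subset htA htA', fun q h1 h2 h3 h4 => ⟨?_, ?_⟩⟩
    · exact h q h1.1 h2.1 (fun f hf => h3 f (Or.inl hf)) h4
    · exact h' q h1.2 h2.2 (fun f hf => h3 f (Or.inr hf)) h4

theorem mem_pairF {M M' : Filter β} {A : Set (β → ZMod p)} {R : Set (β × β)}
    {Z : Set (β × β)} : Z ∈ pairF M M' A R ↔ ∃ S ∈ M, ∃ S' ∈ M', ∃ t : Set (β → ZMod p),
      t.Finite ∧ t ⊆ A ∧
      ∀ q : β × β, q.1 ∈ S → q.2 ∈ S' → (∀ f ∈ t, f q.1 = f q.2) → q ∈ R → q ∈ Z :=
  Iff.rfl

theorem pairF_fst {M M' : Filter β} {A : Set (β → ZMod p)} {R : Set (β × β)} :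
    Tendsto Prod.fst (pairF M M' A R) M := fun S hS =>
  ⟨S, hS, Set.univ, univ_mem, ∅, Set.finite_empty, Set.empty_subset _, fun _ h _ _ _ => h⟩

theorem pairF_snd {M M' : Filter β} {A : Set (β → ZMod p)} {R : Set (β × β)} :
    Tendsto Prod.snd (pairF M M' A R) M' := fun S hS =>
  ⟨Set.univ, univ_mem, S, hS, ∅, Set.finite_empty, Set.empty_subset _, fun _ _ h _ _ => h⟩

theorem pairF_eq {M M' : Filter β} {A : Set (β → ZMod p)} {R : Set (β × β)}
    {f : β → ZMod p} (hf : f ∈ A) : ∀ᶠ q in pairF M M' A R, f q.1 = f q.2 :=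
  ⟨Set.univ, univ_mem, Set.univ, univ_mem, {f}, Set.finite_singleton _,
    Set.singleton_subset_iff.2 hf, fun _ _ _ h _ => h f rfl⟩

theorem pairF_rel {M M' : Filter β} {A : Set (β → ZMod p)} {R : Set (β × β)} :
    ∀ᶠ q in pairF M M' A R, q ∈ R :=
  ⟨Set.univ, univ_mem, Set.univ, univ_mem, ∅, Set.finite_empty, Set.empty_subset _,
    fun _ _ _ _ h => h⟩

/-- invariance of the pair filter -/
theorem pairF_inv {T : β → β} {M M' : Filter β} (hM : Tendsto T M M) (hM' : Tendsto T M' M')
    {A : Set (β → ZMod p)} (hA : ∀ f ∈ A, (fun v => f (T v)) ∈ A) {R : Set (β × β)}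
    (hR : ∀ᶠ q in pairF M M' A R, (T q.1, T q.2) ∈ R) :
    Tendsto (Prod.map T T) (pairF M M' A R) (pairF M M' A R) := by
  rintro Z ⟨S, hS, S', hS', t, ht, htA, h⟩
  obtain ⟨U, hU, U', hU', t', ht', htA', h'⟩ := hR
  refine ⟨T ⁻¹' S ∩ U, inter_mem (hM hS) hU, T ⁻¹' S' ∩ U', inter_mem (hM' hS') hU',
    (fun f : β → ZMod p => fun v => f (T v)) '' t ∪ t', (ht.image _).union ht', ?_, ?_⟩
  · refine Set.union_subset ?_ htA'
    rintro _ ⟨f, hf, rfl⟩
    exact hA f (htA hf)
  · intro q h1 h2 h3 h4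
    refine h (T q.1, T q.2) h1.1 h2.1 (fun f hf => ?_) ?_
    · exact h3 (fun v => f (T v)) (Or.inl ⟨f, hf, rfl⟩)
    · exact h' q h1.2 h2.2 (fun f hf => h3 f (Or.inr hf)) h4

theorem MinF.map_eq {T : β → β} {M : Filter β} (hM : MinF T M) {γ : Type*} {G : Filter γ}
    [hG : G.NeBot] {T' : γ → γ} (hT' : Tendsto T' G G) {π : γ → β} (hπ : Tendsto π G M)
    (hc : ∀ g, π (T' g) = T (π g)) : map π G = M := by
  refine hM.min _ (hG.map π) ?_ hπ
  rw [tendsto_map'_iff]
  have h1 : T ∘ π = π ∘ T' := by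
    funext g
    exact (hc g).symm
  rw [h1]
  exact tendsto_map.comp hT'

/-- DICHOTOMY: a cocycle sum is either eventually a member of `A`, or full. -/
theorem dichotomy [Fact p.Prime] {T : β → β} {M : Filter β} (hM : MinF T M)
    (A : Subring (β → ZMod p)) (hA : ∀ f ∈ A, (fun v => f (T v)) ∈ A)
    {X h : β → ZMod p} (hh : h ∈ A) (hX : ∀ᶠ v in M, X v = X (T v) + h v) :
    (∃ ψ ∈ A, ∀ᶠ v in M, X v = ψ v) ∨
      ∀ f ∈ A, ∀ s : ZMod p, (∀ᶠ v in M, X v = s → f v = 0) → ∀ᶠ v in M, f v = 0 := by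
  classical
  by_cases hall : ∀ c : ZMod p, c ≠ 0 →
      ¬ (pairF M M (A : Set (β → ZMod p)) {q | X q.2 = X q.1 + c}).NeBot
  · left
    have hex : ∀ c : {c : ZMod p // c ≠ 0}, ∃ S ∈ M, ∃ t : Set (β → ZMod p), t.Finite ∧
        t ⊆ (A : Set (β → ZMod p)) ∧ ∀ v ∈ S, ∀ v' ∈ S, (∀ f ∈ t, f v = f v') →
          X v' ≠ X v + c.1 := by
      intro c
      have hb := hall c.1 c.2
      rw [neBot_iff, not_not] at hb
      have he : (∅ : Set (β × β)) ∈ pairF M M (A : Set (β → ZMod p)) {q | X q.2 = X q.1 + c.1} := by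
        rw [hb]
        exact mem_bot
      obtain ⟨S, hS, S', hS', t, ht, htA, hq⟩ := he
      refine ⟨S ∩ S', inter_mem hS hS', t, ht, htA, fun v hv v' hv' hf hX' => ?_⟩
      exact hq (v, v') hv.1 hv'.2 hf hX'
    choose S hS t ht htA hsep using hex
    obtain ⟨ψ, hψ, hψ'⟩ := fin_fun_set A (Set.finite_iUnion ht)
      (fun f hf => by
        obtain ⟨c, hc⟩ := Set.mem_iUnion.1 hf
        exact htA c hc) (⋂ c, S c) X
      (fun v hv v' hv' hf => by
        by_contra hne
        have hc : X v' - X v ≠ 0 := sub_ne_zero.2 fun h => hne h.symm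
        exact hsep ⟨_, hc⟩ v (Set.mem_iInter.1 hv _) v' (Set.mem_iInter.1 hv' _)
          (fun f hft => hf f (Set.mem_iUnion.2 ⟨_, hft⟩)) (by
            change X v' = X v + (X v' - X v)
            ring))
    exact ⟨ψ, hψ, mem_of_superset (iInter_mem.2 hS) hψ'⟩
  · right
    push Not at hall
    obtain ⟨c, hc, hG⟩ := hall
    have hinv : Tendsto (Prod.map T T) (pairF M M (A : Set (β → ZMod p)) {q | X q.2 = X q.1 + c})
        (pairF M M (A : Set (β → ZMod p)) {q | X q.2 = X q.1 + c}) := by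
      refine pairF_inv hM.inv hM.inv hA ?_
      have e1 := pairF_fst (M := M) (M' := M) (A := (A : Set (β → ZMod p)))
        (R := {q | X q.2 = X q.1 + c}) hX
      have e2 := pairF_snd (M := M) (M' := M) (A := (A : Set (β → ZMod p)))
        (R := {q | X q.2 = X q.1 + c}) hX
      filter_upwards [e1, e2, pairF_eq (show h ∈ (A : Set (β → ZMod p)) from hh),
        pairF_rel] with q q1 q2 q3 q4
      have q1' : X q.1 = X (T q.1) + h q.1 := q1
      have q2' : X q.2 = X (T q.2) + h q.2 := q2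
      have q4' : X q.2 = X q.1 + c := q4
      change X (T q.2) = X (T q.1) + c
      rw [q1', q2', q3] at q4'
      have : X (T q.2) + h q.2 = (X (T q.1) + c) + h q.2 := by
        rw [q4']
        ring
      exact add_right_cancel this
    have hfst : map Prod.fst (pairF M M (A : Set (β → ZMod p)) {q | X q.2 = X q.1 + c}) = M :=
      hM.map_eq hinv pairF_fst fun g => rfl
    intro f hf s hs
    have hstep : ∀ s : ZMod p, (∀ᶠ v in M, X v = s → f v = 0) →
        ∀ᶠ v in M, X v = s - c → f v = 0 := by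
      intro s hs
      rw [← hfst]
      have e2 := pairF_snd (M := M) (M' := M) (A := (A : Set (β → ZMod p)))
        (R := {q | X q.2 = X q.1 + c}) hs
      rw [eventually_map]
      filter_upwards [e2, pairF_eq (show f ∈ (A : Set (β → ZMod p)) from hf),
        pairF_rel] with q q2 q3 q4 h1
      have q4' : X q.2 = X q.1 + c := q4
      rw [q3]
      refine q2 ?_
      rw [q4', h1]
      ring
    have hiter : ∀ n : ℕ, ∀ᶠ v in M, X v = s - n * c → f v = 0 := by
      intro n
      induction n with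
      | zero =>
        simpa using hs
      | succ n ih =>
        have := hstep _ ih
        have e : s - (n : ZMod p) * c - c = s - ((n + 1 : ℕ) : ZMod p) * c := by
          push_cast
          ring
        rw [e] at this
        exact this
    have hallt : ∀ t : ZMod p, ∀ᶠ v in M, X v = t → f v = 0 := by
      intro t
      have := hiter ((s - t) * c⁻¹).val
      have e : s - ((((s - t) * c⁻¹).val : ℕ) : ZMod p) * c = t := by
        rw [ZMod.natCast_val, ZMod.cast_id', id_eq, mul_assoc, inv_mul_cancel₀ hc]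
        ring
      rw [e] at this
      exact this
    have := (eventually_all (ι := ZMod p)).2 hallt
    exact this.mono fun v hv => hv _ rfl

/-- SEPARATION of two minimal filters by the functions of `A`. -/
theorem separation [Fact p.Prime] {T : β → β} {M M' : Filter β} (hM : MinF T M)
    (hM' : MinF T M') (A : Subring (β → ZMod p)) (hA : ∀ f ∈ A, (fun v => f (T v)) ∈ A) :
    (∃ e ∈ A, (∀ v, e v = 0 ∨ e v = 1) ∧ (∀ᶠ v in M, e v = 1) ∧ ∀ᶠ v in M', e v = 0) ∨
      ∀ f ∈ A, (∀ᶠ v in M, f v = 0) ↔ ∀ᶠ v in M', f v = 0 := by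
  classical
  by_cases hG : (pairF M M' (A : Set (β → ZMod p)) Set.univ).NeBot
  · right
    have hinv : Tendsto (Prod.map T T) (pairF M M' (A : Set (β → ZMod p)) Set.univ)
        (pairF M M' (A : Set (β → ZMod p)) Set.univ) :=
      pairF_inv hM.inv hM'.inv hA (Eventually.of_forall fun _ => trivial)
    have hfst : map Prod.fst (pairF M M' (A : Set (β → ZMod p)) Set.univ) = M :=
      hM.map_eq hinv pairF_fst fun g => rfl
    have hsnd : map Prod.snd (pairF M M' (A : Set (β → ZMod p)) Set.univ) = M' :=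
      hM'.map_eq hinv pairF_snd fun g => rfl
    intro f hf
    constructor
    · intro h
      rw [← hsnd, eventually_map]
      filter_upwards [pairF_fst (M := M) (M' := M') (A := (A : Set (β → ZMod p)))
        (R := Set.univ) h, pairF_eq (show f ∈ (A : Set (β → ZMod p)) from hf)] with q q1 q2
      rw [← q2]
      exact q1
    · intro h
      rw [← hfst, eventually_map]
      filter_upwards [pairF_snd (M := M) (M' := M') (A := (A : Set (β → ZMod p)))
        (R := Set.univ) h, pairF_eq (show f ∈ (A : Set (β → ZMod p)) from hf)] with q q1 q2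
      rw [q2]
      exact q1
  · left
    rw [neBot_iff, not_not] at hG
    have he : (∅ : Set (β × β)) ∈ pairF M M' (A : Set (β → ZMod p)) Set.univ := by
      rw [hG]
      exact mem_bot
    obtain ⟨S, hS, S', hS', t, ht, htA, hq⟩ := he
    have := ht.to_subtype
    let Φ : (t → ZMod p) → ZMod p := fun c => if ∃ v ∈ S, ∀ f : t, f.1 v = c f then 1 else 0
    refine ⟨fun v => Φ fun f => f.1 v, fin_fun A (fun f : t => f.1) (fun f => htA f.2) Φ,
      fun v => ?_, ?_, ?_⟩
    · change (if ∃ v' ∈ S, ∀ f : t, f.1 v' = f.1 v then (1 : ZMod p) else 0) = 0 ∨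
        (if ∃ v' ∈ S, ∀ f : t, f.1 v' = f.1 v then (1 : ZMod p) else 0) = 1
      split_ifs
      · exact Or.inr rfl
      · exact Or.inl rfl
    · refine mem_of_superset hS fun v hv => ?_
      change (if ∃ v' ∈ S, ∀ f : t, f.1 v' = f.1 v then (1 : ZMod p) else 0) = 1
      rw [if_pos ⟨v, hv, fun f => rfl⟩]
    · refine mem_of_superset hS' fun v hv => ?_
      change (if ∃ v' ∈ S, ∀ f : t, f.1 v' = f.1 v then (1 : ZMod p) else 0) = 0
      rw [if_neg]
      rintro ⟨v', hv', hf⟩
      exact hq (v', v) hv' hv (fun f hft => hf ⟨f, hft⟩) trivial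

end Vale.Agent.P329.H493
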