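import Vale.Agent.P329.H366.Defs
import Vale.Agent.P329.H493.Dyn

/-!
The rows (Y) in the literal form of H366/Defs.
-/

namespace Vale.Agent.P329.H366

open Filter

variable {α : Type} {p : ℕ}

/-- the subring of a class of functions -/
def Alg0.ring {A : (List α → ZMod p) → Prop} (hA : Alg0 A) : Subring (List α → ZMod p) where
  carrier := {f | A f}
  mul_mem' := fun {f g} hf hg => hA.bin (fun a b => a * b) f g hf hg
  one_mem' := hA.const 1
  add_mem' := fun {f g} hf hg => hA.bin (fun a b => a + b) f g hf hg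
  zero_mem' := hA.const 0
  neg_mem' := fun {f} hf => hA.bin (fun a _ => -a) f f hf hf

theorem Alg0.mem_ring {A : (List α → ZMod p) → Prop} (hA : Alg0 A) {f : List α → ZMod p} :
    f ∈ hA.ring ↔ A f := Iff.rfl

theorem MinInv.minF {M : Filter (List α)} (h : MinInv M) : H493.MinF List.tail M :=
  ⟨h.ne, h.inv, fun G hG hG' hle => h.min G hG hle hG'⟩

theorem Alg0.sep [Fact p.Prime] {A : (List α → ZMod p) → Prop} (hA : Alg0 A)
    (t : Finset (List α → ZMod p)) (ht : ∀ f ∈ t, A f) (S : Set (List α)) (a : List α → ZMod p)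
    (h : ∀ v ∈ S, ∀ v' ∈ S, (∀ f ∈ t, f v = f v') → a v = a v') :
    ∃ ψ, A ψ ∧ ∀ v ∈ S, a v = ψ v := by
  obtain ⟨ψ, hψ, h'⟩ := H493.fin_fun_set hA.ring t.finite_toSet (fun f hf => ht f hf) S a
    (fun v hv v' hv' hf => h v hv v' hv' fun f hft => hf f hft)
  exact ⟨ψ, hψ, h'⟩

theorem dichotomy [Fact p.Prime] {A : (List α → ZMod p) → Prop} (hA : Alg A)
    {M : Filter (List α)} (hM : MinInv M) {h : List α → ZMod p} (hh : A h)
    (X : List α → ZMod p) (hX : ∀ v, X v = X v.tail + h v) :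
    (∃ ψ, A ψ ∧ ∀ᶠ v in M, X v = ψ v) ∨
      (∀ s f, A f → (∀ᶠ v in M, X v = s → f v = 0) → ∀ᶠ v in M, f v = 0) := by
  rcases H493.dichotomy hM.minF hA.toAlg0.ring (fun f hf => hA.tail f hf) hh
    (Eventually.of_forall hX) with ⟨ψ, hψ, h1⟩ | h1
  · exact Or.inl ⟨ψ, hψ, h1⟩
  · exact Or.inr fun s f hf hs => h1 f hf s hs

/-- the same with the recursion only eventually -/
theorem dichotomy' [Fact p.Prime] {A : (List α → ZMod p) → Prop} (hA : Alg A)
    {M : Filter (List α)} (hM : MinInv M) {h : List α → ZMod p} (hh : A h)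
    (X : List α → ZMod p) (hX : ∀ᶠ v in M, X v = X v.tail + h v) :
    (∃ ψ, A ψ ∧ ∀ᶠ v in M, X v = ψ v) ∨
      (∀ s f, A f → (∀ᶠ v in M, X v = s → f v = 0) → ∀ᶠ v in M, f v = 0) := by
  rcases H493.dichotomy hM.minF hA.toAlg0.ring (fun f hf => hA.tail f hf) hh hX with
    ⟨ψ, hψ, h1⟩ | h1
  · exact Or.inl ⟨ψ, hψ, h1⟩
  · exact Or.inr fun s f hf hs => h1 f hf s hs

theorem separate [Fact p.Prime] {A : (List α → ZMod p) → Prop} (hA : Alg A)
    {M M' : Filter (List α)} (hM : MinInv M) (hM' : MinInv M') :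
    (∃ S, A (ind p S) ∧ S ∈ M ∧ Sᶜ ∈ M') ∨
      (∀ f, A f → (∀ᶠ v in M, f v = 0) → ∀ᶠ v in M', f v = 0) := by
  rcases H493.separation hM.minF hM'.minF hA.toAlg0.ring (fun f hf => hA.tail f hf) with
    ⟨e, he, h01, h1, h0⟩ | h1
  · left
    refine ⟨{v | e v = 1}, ?_, h1, ?_⟩
    · have : ind p {v | e v = 1} = e := by
        funext v
        unfold ind
        rcases h01 v with h | h
        · rw [h, if_neg]
          change ¬ e v = 1
          rw [h]
          exact zero_ne_one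
        · rw [h, if_pos]
          exact h
      rw [this]
      exact he
    · refine mem_of_superset h0 fun v hv => ?_
      change ¬ e v = 1
      have hv' : e v = 0 := hv
      rw [hv']
      exact zero_ne_one
  · right
    intro f hf hf0
    exact (h1 f hf).1 hf0

end Vale.Agent.P329.H366
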