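import Vale.Agent.P329.H493.Red

/-!
Good walks are inherited by the next stage.
-/

namespace Vale.Agent.P329.H366

open Filter

variable {α : Type} {p : ℕ}

/-- a walk with steps `0`, `1`, infinitely often `1`, makes a step from every residue -/
theorem walk_clock [Fact p.Prime] {M : Filter (List α)} (hM : MinInv M) {h X : List α → ZMod p}
    (hX : ∀ v (i : ℕ), X (v.drop i) = X v - ∑ j ∈ Finset.range i, h (v.drop j))
    (h01 : ∀ᶠ v in M, h v = 0 ∨ h v = 1) (hfr : ∃ᶠ v in M, h v ≠ 0) (ρ : ZMod p) :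
    ∃ᶠ v in M, X v = ρ ∧ h v ≠ 0 := by
  classical
  intro hno
  obtain ⟨J, hJ⟩ := many_cuts hM h hfr (p + 1)
  have e1 : ∀ᶠ v in M, ∀ i : Fin (J + 1), h (v.drop i) = 0 ∨ h (v.drop i) = 1 :=
    eventually_all.2 fun i => (hM.drop493 i).eventually h01
  have e2 : ∀ᶠ v in M, ∀ i : Fin (J + 1), ¬ (X (v.drop i) = ρ ∧ h (v.drop i) ≠ 0) :=
    eventually_all.2 fun i => (hM.drop493 i).eventually hno
  have := hM.ne
  obtain ⟨v, h1, h2, h3⟩ := (hJ.and (e1.and e2)).exists
  let c : ℕ → ℕ := fun i => ((Finset.range i).filter fun j => h (v.drop j) ≠ 0).card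
  have hc0 : c 0 = 0 := by simp [c]
  have hcs : ∀ i, c (i + 1) = c i + if h (v.drop i) ≠ 0 then 1 else 0 := by
    intro i
    simp only [c]
    rw [Finset.range_add_one, Finset.filter_insert]
    split_ifs with hi
    · rw [Finset.card_insert_of_notMem (by simp)]
    · rw [add_zero]
  have hsum : ∀ i ≤ J, X (v.drop i) = X v - (c i : ZMod p) := by
    intro i hi
    rw [hX v i]
    congr 1
    induction i with
    | zero => simp [hc0]
    | succ i ih =>
      rw [Finset.sum_range_succ, ih (by omega), hcs i]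
      push_cast
      congr 1
      have := h2 ⟨i, by omega⟩
      rcases this with h4 | h4
      · have h4' : h (v.drop i) = 0 := h4
        rw [if_neg (by simpa using h4'), h4']
      · have h4' : h (v.drop i) = 1 := h4
        rw [if_pos (by rw [h4']; exact one_ne_zero), h4']
  set m := (X v - ρ).val with hm
  have hmp : m < p := ZMod.val_lt _
  have hex : ∃ i, m < c (i + 1) := by
    refine ⟨J, lt_of_lt_of_le (Nat.lt_succ_of_lt hmp) (le_trans h1 ?_)⟩
    exact Finset.card_le_card (Finset.filter_subset_filter _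
      (Finset.range_subset_range.2 (Nat.le_succ J)))
  have hi0 := Nat.find_spec hex
  set i0 := Nat.find hex with hi0'
  have hi0J : i0 < J := by
    by_contra hcon
    push Not at hcon
    have hJ0 : 0 < J := by
      by_contra hJ0
      have : J = 0 := by omega
      rw [this] at h1
      simp at h1
    have := Nat.find_min hex (m := J - 1) (by omega)
    apply this
    have e : J - 1 + 1 = J := by omega
    rw [e]
    exact lt_of_lt_of_le (Nat.lt_succ_of_lt hmp) h1
  have hci : c i0 = m := by
    have hle : c i0 ≤ m := by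
      rcases Nat.eq_zero_or_pos i0 with h0 | h0
      · rw [h0, hc0]
        exact Nat.zero_le _
      · have := Nat.find_min hex (m := i0 - 1) (by omega)
        push Not at this
        have e : i0 - 1 + 1 = i0 := by omega
        rwa [e] at this
    have := hcs i0
    rw [this] at hi0
    split_ifs at hi0 with h5
    · omega
    · omega
  have hne : h (v.drop i0) ≠ 0 := by
    by_contra hcon
    have := hcs i0
    rw [if_neg (by simpa using hcon)] at this
    omega
  refine h3 ⟨i0, by omega⟩ ⟨?_, hne⟩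
  change X (v.drop i0) = ρ
  rw [hsum i0 (by omega), hci, hm, ZMod.natCast_val, ZMod.cast_id', id_eq]
  ring

theorem not_cob_full [Fact p.Prime] {Cap : (List α → ZMod p) → Prop} (S : Sys α p Cap)
    {D : S.Code} {h : List α → ZMod p} (hU : S.U D h) {M : Filter (List α)} (hM : MinInv M)
    (hc : ¬ Cob (S.A D) M h) :
    ∀ s f, S.A D f → (∀ᶠ v in M, NN h v = s → f v = 0) → ∀ᶠ v in M, f v = 0 := by
  rcases dichotomy (S.alg D) hM (S.U_A D h hU) (NN h) (S.NN_tail hU) with ⟨ψ, hψ, h1⟩ | h1
  · exfalso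
    apply hc
    refine ⟨ψ, hψ, ?_⟩
    filter_upwards [h1, hM.inv.eventually h1] with v h2 h3
    rw [← h2, ← h3, S.NN_tail hU v]
    ring
  · exact h1

/-- (g1) the new cuts are frequent -/
theorem good_freq [Fact p.Prime] {Cap : (List α → ZMod p) → Prop} (S : Sys α p Cap)
    {D : S.Code} {h : List α → ZMod p} (hU : S.U D h) {M : Filter (List α)} (hM : MinInv M)
    (hG : Good (S.A D) M h) (ρ : ZMod p) : ∃ᶠ v in M, S.w (S.nx D h ρ) v ≠ 0 := by
  rcases hG with hG | ⟨hG1, hG2⟩
  · intro hno
    push Not at hno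
    have h1 : ∀ᶠ v in M, NN h v = ρ → h v = 0 := by
      filter_upwards [hno] with v hv hv'
      rw [S.nx_w D h ρ hU, if_pos hv'] at hv
      exact hv
    have h2 := not_cob_full S hU hM hG ρ h (S.U_A D h hU) h1
    apply hG
    refine ⟨fun _ => 0, (S.alg D).const 0, ?_⟩
    filter_upwards [h2] with v hv
    rw [hv, sub_zero]
  · have := walk_clock hM (S.NN_drop hU) hG1 hG2 ρ
    refine this.mono fun v hv => ?_
    rw [S.nx_w D h ρ hU, if_pos hv.1]
    exact hv.2

/-- (g2) walks without primitive stay without primitive -/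
theorem ncob_next [Finite α] [Fact p.Prime] {Cap : (List α → ZMod p) → Prop} (S : Sys α p Cap)
    {D : S.Code} {h : List α → ZMod p} (hU : S.U D h) {M : Filter (List α)} (hM : MinInv M)
    (hG : ¬ Cob (S.A D) M h) (ρ : ZMod p) :
    ¬ Cob (S.A (S.nx D h ρ)) M (S.w (S.nx D h ρ)) := by
  classical
  rintro ⟨a, ha, hev⟩
  obtain ⟨b, hb, hb'⟩ := S.reduce hU hM (good_freq S hU hM (Or.inl hG) ρ) ha
  obtain ⟨b', hb1, hb2⟩ := rotation (S.alg D) (S.U_A D h hU) (NN h)
    (Eventually.of_forall (S.NN_tail hU)) (not_cob_full S hU hM hG) b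
    (fun s v => if s = ρ then h v else 0) hb
    (fun s => by
      by_cases hs : s = ρ
      · simp only [if_pos hs]
        exact S.U_A D h hU
      · simp only [if_neg hs]
        exact (S.alg D).const 0)
    (by
      filter_upwards [hev, hb', hM.inv.eventually hb'] with v h1 h2 h3
      rw [← h2, ← h3, ← h1, S.nx_w D h ρ hU])
  apply hG
  refine ⟨b', hb1, ?_⟩
  filter_upwards [hb2] with v hv
  rw [← hv, Finset.sum_ite_eq', if_pos (Finset.mem_univ _)]

theorem good_next [Finite α] [Fact p.Prime] {Cap : (List α → ZMod p) → Prop} (S : Sys α p Cap)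
    {D : S.Code} {h : List α → ZMod p} (hU : S.U D h) {M : Filter (List α)} (hM : MinInv M)
    (hG : Good (S.A D) M h) (ρ : ZMod p) :
    Good (S.A (S.nx D h ρ)) M (S.w (S.nx D h ρ)) := by
  rcases hG with hG | ⟨hG1, hG2⟩
  · exact Or.inl (ncob_next S hU hM hG ρ)
  · refine Or.inr ⟨?_, good_freq S hU hM (Or.inr ⟨hG1, hG2⟩) ρ⟩
    filter_upwards [hG1] with v hv
    rw [S.nx_w D h ρ hU]
    split_ifs
    · exact hv
    · exact Or.inl rfl

/-- (g3) the null unit of a charge without primitive has no primitive -/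
theorem null_ncob [Finite α] [Fact p.Prime] {Cap : (List α → ZMod p) → Prop} (S : Sys α p Cap)
    {D : S.Code} {M : Filter (List α)} (hM : MinInv M) (hG : ¬ Cob (S.A D) M (S.w D))
    (ρ : ZMod p) {g : List α → ZMod p} (hg : S.A D g) {φ η : List α → ZMod p}
    (hη : S.A (S.nx D (S.w D) ρ) η)
    (hid : ∀ v, g v * (S.w D v)⁻¹ * ((if NN (S.w D) v.tail = ρ then 1 else 0) -
      (if NN (S.w D) v = ρ then 1 else 0)) = φ v + η v - η v.tail) :
    ¬ Cob (S.A (S.nx D (S.w D) ρ)) M (fun v => S.w (S.nx D (S.w D) ρ) v + φ v) := by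
  classical
  have hU := S.w_U D
  rintro ⟨a, ha, hev⟩
  have haη : S.A (S.nx D (S.w D) ρ) fun v => a v + η v :=
    (S.alg _).bin (fun x y => x + y) _ _ ha hη
  obtain ⟨b, hb, hb'⟩ := S.reduce hU hM (good_freq S hU hM (Or.inl hG) ρ) haη
  have hu : S.A D fun v => g v * (S.w D v)⁻¹ :=
    (S.alg D).bin (fun x y => x * y⁻¹) _ _ hg (S.U_A D _ hU)
  obtain ⟨b', hb1, hb2⟩ := rotation (S.alg D) (S.U_A D _ hU) (NN (S.w D))
    (Eventually.of_forall (S.NN_tail hU)) (not_cob_full S hU hM hG) b
    (fun s v => (if s = ρ then S.w D v else 0) + g v * (S.w D v)⁻¹ *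
      ((if s - S.w D v = ρ then 1 else 0) - (if s = ρ then 1 else 0))) hb
    (fun s => by
      refine (S.alg D).bin (fun x y => x + y) _ _ ?_ ?_
      · by_cases hs : s = ρ
        · simp only [if_pos hs]
          exact S.U_A D _ hU
        · simp only [if_neg hs]
          exact (S.alg D).const 0
      · refine (S.alg D).bin (fun x y => x * y) _ _ hu ?_
        exact (S.alg D).bin (fun x _ => (if s - x = ρ then 1 else 0) - (if s = ρ then 1 else 0))
          (S.w D) (S.w D) (S.U_A D _ hU) (S.U_A D _ hU))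
    (by
      filter_upwards [hev, hb', hM.inv.eventually hb'] with v h1 h2 h3
      rw [← h2, ← h3]
      have h4 := hid v
      have h5 : NN (S.w D) v - S.w D v = NN (S.w D) v.tail := by
        rw [S.NN_tail hU v]
        ring
      rw [h5, h4]
      have h6 := S.nx_w D (S.w D) ρ hU v
      rw [h6] at h1
      have h7 : a v = (if NN (S.w D) v = ρ then S.w D v else 0) + φ v + a v.tail := by
        rw [h1]
        ring
      rw [h7]
      ring)
  apply hG
  refine ⟨b', hb1, ?_⟩
  filter_upwards [hb2] with v hv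
  rw [← hv, Finset.sum_add_distrib, Finset.sum_ite_eq', if_pos (Finset.mem_univ _),
    ← Finset.mul_sum, Finset.sum_sub_distrib]
  have e1 : ∑ s : ZMod p, (if s - S.w D v = ρ then (1 : ZMod p) else 0) = 1 := by
    have : ∀ s : ZMod p, (s - S.w D v = ρ) ↔ s = ρ + S.w D v := fun s => sub_eq_iff_eq_add
    simp only [this]
    rw [Finset.sum_ite_eq', if_pos (Finset.mem_univ _)]
  rw [e1, Finset.sum_ite_eq', if_pos (Finset.mem_univ _), sub_self, mul_zero, add_zero]

end Vale.Agent.P329.H366
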