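import Vale.Agent.P329.H493.Rot

/-!
Reduction of local functions of the next stage on a minimal filter.
-/

namespace Vale.Agent.P329.H366

open Filter

variable {α : Type} {p : ℕ}

theorem Alg.drop {A : (List α → ZMod p) → Prop} (hA : Alg A) {f : List α → ZMod p} (hf : A f)
    (i : ℕ) : A fun v => f (v.drop i) := by
  induction i with
  | zero => exact hf
  | succ i ih =>
    have := hA.tail _ ih
    have e : (fun v : List α => f (v.drop (i + 1))) = fun v => f (v.tail.drop i) := by
      funext v
      rw [List.drop_tail]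
    rw [e]
    exact this

theorem Sys.h_nil {Cap : (List α → ZMod p) → Prop} (S : Sys α p Cap) {D : S.Code}
    {h : List α → ZMod p} (hU : S.U D h) : h [] = 0 := by
  by_contra hne
  exact S.U_cut D h hU [] hne (S.w_nil D)

theorem Sys.NN_tail {Cap : (List α → ZMod p) → Prop} (S : Sys α p Cap) {D : S.Code}
    {h : List α → ZMod p} (hU : S.U D h) (v : List α) : NN h v = NN h v.tail + h v := by
  cases v with
  | nil =>
    rw [List.tail_nil, S.h_nil hU, add_zero]
  | cons b v => rw [NN_cons, List.tail_cons]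

theorem Sys.NN_drop {Cap : (List α → ZMod p) → Prop} (S : Sys α p Cap) {D : S.Code}
    {h : List α → ZMod p} (hU : S.U D h) (v : List α) (i : ℕ) :
    NN h (v.drop i) = NN h v - ∑ j ∈ Finset.range i, h (v.drop j) := by
  induction i with
  | zero => simp
  | succ i ih =>
    have h1 := S.NN_tail hU (v.drop i)
    rw [List.tail_drop] at h1
    rw [Finset.sum_range_succ]
    rw [ih] at h1
    have h2 : NN h (v.drop (i + 1)) = NN h v - ∑ j ∈ Finset.range i, h (v.drop j) - h (v.drop i) := by
      rw [h1]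
      ring
    rw [h2]
    ring

theorem MinInv.drop493 {M : Filter (List α)} (h : MinInv M) (j : ℕ) :
    Tendsto (List.drop j) M M := by
  induction j with
  | zero => exact tendsto_id
  | succ j ih =>
    have e : (List.drop (j + 1) : List α → List α) = List.drop j ∘ List.tail := by
      funext v
      exact List.drop_tail.symm
    rw [e]
    exact ih.comp h.inv

/-- Bounded gaps. -/
theorem MinInv.syn493 {M : Filter (List α)} (h : MinInv M) {S : Set (List α)}
    (hS : ∃ᶠ v in M, v ∈ S) : ∃ n, ∀ᶠ v in M, ∃ j ≤ n, v.drop j ∈ S := by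
  by_contra hno
  push Not at hno
  let D : ℕ → Set (List α) := fun n => {v | ∀ j ≤ n, v.drop j ∉ S}
  have hD : ∀ n, (M ⊓ 𝓟 (D n)).NeBot := by
    intro n
    rw [inf_principal_neBot_iff]
    intro U hU
    have h1 := hno n
    by_contra hne
    rw [Set.not_nonempty_iff_eq_empty] at hne
    apply h1
    filter_upwards [hU] with v hv
    by_contra h2
    have : v ∈ U ∩ D n := ⟨hv, h2⟩
    rw [hne] at this
    exact this
  have hmono : ∀ n m, n ≤ m → D m ⊆ D n := fun n m h v hv j hj => hv j (hj.trans h)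
  have hmem : ∀ U, U ∈ (⨅ n, 𝓟 (D n)) ↔ ∃ n, D n ⊆ U := by
    intro U
    rw [mem_iInf_of_directed]
    · simp only [mem_principal]
    · intro a b
      refine ⟨max a b, ?_, ?_⟩
      · exact principal_mono.2 (hmono _ _ (le_max_left _ _))
      · exact principal_mono.2 (hmono _ _ (le_max_right _ _))
  have hG : (M ⊓ ⨅ n, 𝓟 (D n)).NeBot := by
    rw [inf_neBot_iff]
    intro U hU T hT
    obtain ⟨n, hn⟩ := (hmem T).1 hT
    exact (inf_principal_neBot_iff.1 (hD n) U hU).mono (Set.inter_subset_inter_right _ hn)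
  have hinv : Tendsto List.tail (M ⊓ ⨅ n, 𝓟 (D n)) (M ⊓ ⨅ n, 𝓟 (D n)) := by
    refine h.inv.inf ?_
    rw [tendsto_iInf]
    intro n
    refine tendsto_principal.2 ?_
    have : D (n + 1) ∈ (⨅ n, 𝓟 (D n)) := (hmem _).2 ⟨n + 1, le_rfl⟩
    filter_upwards [this] with v hv j hj
    have := hv (j + 1) (by omega)
    rw [List.drop_tail]
    exact this
  have heq := h.min _ hG inf_le_left hinv
  have h0 : D 0 ∈ M := by
    rw [← heq]
    exact mem_inf_of_right ((hmem _).2 ⟨0, le_rfl⟩)
  apply hS
  filter_upwards [h0] with v hv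
  exact hv 0 le_rfl

/-- eventually there are many cuts in a window -/
theorem many_cuts {M : Filter (List α)} (hM : MinInv M) (w : List α → ZMod p)
    (hcut : ∃ᶠ v in M, w v ≠ 0) (n : ℕ) :
    ∃ J, ∀ᶠ v in M, n ≤ ((Finset.range J).filter fun i => w (v.drop i) ≠ 0).card := by
  classical
  obtain ⟨g, hg⟩ := hM.syn493 (S := {v | w v ≠ 0}) hcut
  refine ⟨n * (g + 1), ?_⟩
  have hall : ∀ᶠ v in M, ∀ k : Fin n, ∃ j ≤ g, w ((v.drop (k * (g + 1))).drop j) ≠ 0 :=
    eventually_all.2 fun k => (hM.drop493 (k * (g + 1))).eventually hg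
  filter_upwards [hall] with v hv
  choose j hj hw using hv
  let F : Fin n → ℕ := fun k => k * (g + 1) + j k
  have hF : Function.Injective F := by
    intro k k' hkk
    have e : (k : ℕ) * (g + 1) + j k = k' * (g + 1) + j k' := hkk
    have h1 := hj k
    have h2 := hj k'
    have h3 : (k : ℕ) = k' := by
      have e1 : ((k : ℕ) * (g + 1) + j k) / (g + 1) = k := by
        rw [mul_comm, Nat.mul_add_div (Nat.succ_pos g), Nat.div_eq_of_lt (by omega), add_zero]
      have e2 : ((k' : ℕ) * (g + 1) + j k') / (g + 1) = k' := by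
        rw [mul_comm, Nat.mul_add_div (Nat.succ_pos g), Nat.div_eq_of_lt (by omega), add_zero]
      rw [← e1, ← e2, e]
    exact Fin.ext h3
  have hcard : (Finset.univ.image F).card = n := by
    rw [Finset.card_image_of_injective _ hF, Finset.card_univ, Fintype.card_fin]
  refine hcard.symm.le.trans (Finset.card_le_card fun i hi => ?_)
  obtain ⟨k, -, rfl⟩ := Finset.mem_image.1 hi
  rw [Finset.mem_filter, Finset.mem_range]
  have h1 := hj k
  have h2 := k.2
  refine ⟨?_, ?_⟩
  · change (k : ℕ) * (g + 1) + j k < n * (g + 1)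
    have h3 : ((k : ℕ) + 1) * (g + 1) ≤ n * (g + 1) := Nat.mul_le_mul_right _ h2
    have h4 : ((k : ℕ) + 1) * (g + 1) = (k : ℕ) * (g + 1) + (g + 1) := by ring
    omega
  · have h3 := hw k
    rw [List.drop_drop] at h3
    exact h3

theorem take_eq_of_heads {J : ℕ} {v v' : List α}
    (h : ∀ i < J, (v.drop i).head? = (v'.drop i).head?) : v.take J = v'.take J := by
  apply List.ext_getElem?
  intro i
  rw [List.getElem?_take, List.getElem?_take]
  split_ifs with hi
  · have := h i hi
    rwa [List.head?_drop, List.head?_drop] at this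
  · rfl

/-- REDUCE: a local function of the next stage is, on a minimal filter on which the new cuts are
frequent, a local function of the old stage and of the value of the walk. -/
theorem Sys.reduce [Finite α] [Fact p.Prime] {Cap : (List α → ZMod p) → Prop} (S : Sys α p Cap)
    {D : S.Code} {h : List α → ZMod p} {ρ : ZMod p} (hU : S.U D h) {M : Filter (List α)}
    (hM : MinInv M) (hcut : ∃ᶠ v in M, S.w (S.nx D h ρ) v ≠ 0) {a : List α → ZMod p}
    (ha : S.A (S.nx D h ρ) a) :
    ∃ b : ZMod p → List α → ZMod p, (∀ s, S.A D (b s)) ∧ ∀ᶠ v in M, a v = b (NN h v) v := by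
  classical
  obtain ⟨n, hloc⟩ := S.loc _ a ha
  obtain ⟨J, hJ⟩ := many_cuts hM (S.w (S.nx D h ρ)) hcut n
  have hl : ∀ b : α, ∃ f : List α → ZMod p, S.A D f ∧
      ∀ v, (v.head? = some b → f v = 1) ∧ (v.head? ≠ some b → f v = 0) := fun b =>
    ⟨_, S.letter D b, fun v => ⟨fun h => if_pos h, fun h => if_neg h⟩⟩
  choose lf hlf hlf' using hl
  let t : Set (List α → ZMod p) :=
    Set.range (fun q : α × Fin J => fun v => lf q.1 (v.drop q.2)) ∪
      Set.range (fun i : Fin J => fun v => h (v.drop i))
  have ht : t.Finite := (Set.finite_range _).union (Set.finite_range _)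
  have htA : ∀ f ∈ t, f ∈ (S.alg D).toAlg0.ring := by
    rintro f (⟨q, rfl⟩ | ⟨i, rfl⟩)
    · exact (S.alg D).drop (hlf q.1) q.2
    · exact (S.alg D).drop (S.U_A D h hU) i
  have key : ∀ s : ZMod p, ∃ ψ ∈ (S.alg D).toAlg0.ring,
      ∀ v ∈ {v : List α | NN h v = s ∧
        n ≤ ((Finset.range J).filter fun i => S.w (S.nx D h ρ) (v.drop i) ≠ 0).card},
        a v = ψ v := by
    intro s
    refine H493.fin_fun_set _ ht htA _ a ?_
    rintro v ⟨hv1, hv2⟩ v' ⟨hv1', hv2'⟩ hf
    have hhead : ∀ i < J, (v.drop i).head? = (v'.drop i).head? := by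
      intro i hi
      have hb : ∀ b : α, (v.drop i).head? = some b ↔ (v'.drop i).head? = some b := by
        intro b
        have e : lf b (v.drop i) = lf b (v'.drop i) :=
          hf _ (Or.inl ⟨(b, ⟨i, hi⟩), rfl⟩)
        constructor
        · intro h1
          by_contra h2
          rw [(hlf' b _).1 h1, (hlf' b _).2 h2] at e
          exact one_ne_zero e
        · intro h1
          by_contra h2
          rw [(hlf' b _).1 h1, (hlf' b _).2 h2] at e
          exact zero_ne_one e
      exact Option.ext fun b => hb b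
    have hh : ∀ i < J, h (v.drop i) = h (v'.drop i) := fun i hi =>
      hf _ (Or.inr ⟨⟨i, hi⟩, rfl⟩)
    have hNN : ∀ i < J, NN h (v.drop i) = NN h (v'.drop i) := by
      intro i hi
      rw [S.NN_drop hU, S.NN_drop hU, hv1, hv1']
      congr 1
      exact Finset.sum_congr rfl fun j hj => hh j ((Finset.mem_range.1 hj).trans hi)
    refine hloc J v v' (take_eq_of_heads hhead) (fun i hi => ?_) ?_
    · rw [S.nx_w D h ρ hU, S.nx_w D h ρ hU, hNN i hi, hh i hi]
    · convert hv2
  choose b hb hb' using key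
  refine ⟨b, hb, ?_⟩
  filter_upwards [hJ] with v hv
  exact hb' (NN h v) v ⟨rfl, hv⟩

end Vale.Agent.P329.H366
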