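import Vale.Agent.P329.H493.DynA

/-!
Rotation over a full walk: comparison of coefficients.
-/

namespace Vale.Agent.P329.H366

open Filter

variable {α : Type} {p : ℕ}

theorem Alg0.finsum {A : (List α → ZMod p) → Prop} (hA : Alg0 A) {ι : Type*} (s : Finset ι)
    (f : ι → List α → ZMod p) (hf : ∀ i ∈ s, A (f i)) : A fun v => ∑ i ∈ s, f i v := by
  have h : (fun v => ∑ i ∈ s, f i v) = ∑ i ∈ s, f i := by
    funext v
    rw [Finset.sum_apply]
  rw [h]
  exact hA.ring.sum_mem fun i hi => hf i hi

/-- `F(g v, v)` for a finite family -/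
theorem Alg0.sel [Fact p.Prime] {A : (List α → ZMod p) → Prop} (hA : Alg0 A)
    {g : List α → ZMod p} (hg : A g) (f : ZMod p → List α → ZMod p) (hf : ∀ s, A (f s)) :
    A fun v => f (g v) v := by
  classical
  have h : (fun v => f (g v) v) = fun v => ∑ t : ZMod p, (if g v = t then f t v else 0) := by
    funext v
    rw [Finset.sum_ite_eq, if_pos (Finset.mem_univ _)]
  rw [h]
  exact hA.finsum _ _ fun t _ => hA.bin (fun a b => if a = t then b else 0) g (f t) hg (hf t)

/-- ROTATION: if the walk `X` of `h` is full on `M` and `a_(X v) v - a_(X v.tail) v.tail = θ_(X v) v`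
eventually, then the sum of the `θ_s` is a coboundary. -/
theorem rotation [Fact p.Prime] {A : (List α → ZMod p) → Prop} (hA : Alg A)
    {M : Filter (List α)} {h : List α → ZMod p} (hh : A h)
    (X : List α → ZMod p) (hX : ∀ᶠ v in M, X v = X v.tail + h v)
    (hfull : ∀ s f, A f → (∀ᶠ v in M, X v = s → f v = 0) → ∀ᶠ v in M, f v = 0)
    (a θ : ZMod p → List α → ZMod p) (ha : ∀ s, A (a s)) (hθ : ∀ s, A (θ s))
    (heq : ∀ᶠ v in M, a (X v) v - a (X v.tail) v.tail = θ (X v) v) :
    ∃ b, A b ∧ ∀ᶠ v in M, ∑ s, θ s v = b v - b v.tail := by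
  classical
  have hs : ∀ s : ZMod p, ∀ᶠ v in M, a s v - a (s - h v) v.tail - θ s v = 0 := by
    intro s
    refine hfull s _ ?_ ?_
    · have h1 : A fun v => a (s - h v) v.tail := by
        have h2 : A fun v => s - h v := hA.bin (fun x _ => s - x) h h hh hh
        exact hA.toAlg0.sel h2 (fun t v => a t v.tail) fun t => hA.tail _ (ha t)
      have h3 : A fun v => a s v - a (s - h v) v.tail :=
        hA.bin (fun x y => x - y) _ _ (ha s) h1
      exact hA.bin (fun x y => x - y) _ _ h3 (hθ s)
    · filter_upwards [hX, heq] with v h1 h2 h3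
      have h4 : X v.tail = s - h v := by
        rw [← h3, h1]
        ring
      rw [h3, h4] at h2
      rw [h2, sub_self]
  refine ⟨fun v => ∑ s, a s v, hA.finsum _ _ fun s _ => ha s, ?_⟩
  have hall := (eventually_all (ι := ZMod p)).2 hs
  filter_upwards [hall] with v hv
  have e1 : ∑ s, θ s v = ∑ s, a s v - ∑ s, a (s - h v) v.tail := by
    rw [← Finset.sum_sub_distrib]
    refine Finset.sum_congr rfl fun s _ => ?_
    have := hv s
    rw [sub_eq_zero] at this
    exact this.symm
  rw [e1]
  congr 1
  exact (Equiv.subRight (h v)).sum_comp fun s => a s v.tail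

end Vale.Agent.P329.H366
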